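import Vale.Agent.P224.R2.H758.NA.Rows
import Vale.Agent.P224.R2.H758.NA.El
import Vale.Agent.P224.R2.H758.NA.DF0

/-!
The near certificate in dimension 2: the identity and the pointwise inequality.
-/

namespace Vale.Agent.P224.R2.H758.NA

open Vale.Agent.P224.UE Vale.Agent.P224.POS Vale.Agent.P224.PO Vale.Agent.P224.R2.H758
open scoped RealInnerProductSpace

noncomputable section

/-- the blocks -/
def B1 : List BlkX := [⟨els0, 70368744177664, N0⟩,
  ⟨els1, 70368744177664, N1⟩,
  ⟨els2, 35184372088832, N2⟩,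
  ⟨els3, 70368744177664, N3⟩]

/-- the integers replacing the first four variables (not powers of two: the kernel hashes a numeral
by its last 64 bits) -/
def Ms : List Nat := [
  Nat.add (Nat.pow 2 67) 290111543185420215,
  Nat.add (Nat.pow 2 861) 3725692512810426243,
  Nat.add (Nat.pow 2 5478) 3780639114839986163,
  Nat.add (Nat.pow 2 38535) 1168380134209852203]

set_option maxRecDepth 100000 in
/-- **The identity**, checked by the kernel. -/
theorem idM : chkX Ms (PE.sb sbN P) 8 tabN [(.c 1, B1)] = true := by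
  decide +kernel

lemma hB1 : GoodX B1 :=
  (goodX_cons psd0 (goodX_cons psd1 (goodX_cons psd2 (goodX_cons psd3 goodX_nil))))

/-- **Positivity** of the left side on pair data with a unit vector. -/
theorem pos {E : Type*} [NormedAddCommGroup E] [InnerProductSpace ℝ E] {v x N y w : E}
    (hv : ‖v‖ = 1) (hx : ‖x‖ = 1) (hN : ‖N‖ = 1) (hy : ‖y‖ = 1) (hw : ‖w‖ = 1)
    (hxN : ⟪x, N⟫ = 0) (hyw : ⟪y, w⟫ = 0) (hs : ⟪x, y⟫ < 1) :
    0 ≤ PE.ev (vh (dv x N y w v)) P :=
  nonneg_of_chkN 8 (by norm_num) idM rfl hB1 hv hx hN hy hw hxN hyw hs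

/-- **The pointwise inequality of the certificate.** -/
theorem hpos {E : Type*} [NormedAddCommGroup E] [InnerProductSpace ℝ E] (v x N y w : E)
    (hv : ‖v‖ = 1) (hx : ‖x‖ = 1) (hN : ‖N‖ = 1) (hy : ‖y‖ = 1) (hw : ‖w‖ = 1)
    (hxN : ⟪x, N⟫ = 0) (hyw : ⟪y, w⟫ = 0) (hs : ⟪x, y⟫ < 1) :
    0 ≤ Vale.Agent.P224.UE.W9 0 0 (-(721554496 / 68719476736)) 0 0 0 0 0 0 (dv x N y w v)
      + hsum 2 (rlH 68719476736 rows) (dv x N y w v) + SQ (5726076928 / 68719476736) (5298716672 / 68719476736) (3054174208 / 68719476736) (794820608 / 68719476736) (24485494784 / 68719476736) (50255822848 / 68719476736) (51037208576 / 68719476736) (20621164544 / 68719476736) (dv x N y w v) :=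
  pos_of hs (pos hv hx hN hy hw hxN hyw hs)

end

end Vale.Agent.P224.R2.H758.NA
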